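import Vale.Agent.P065.H587.Ent2

/-!
# P091, block AD: frame and frozen statements (helper987)

Formalisation frame for note #10233 (approximate duality in every abelian group).
Everything is finite-alphabet entropy calculus in the language of
`Vale.Agent.P065.H587.Ent` (random variables are functions on a finite sample space with
weights).  A *labelled law* is a finite probability space with a letter `a` in an abelian
group and a label `z`; a *letter* is a pair of sample points with the same label (the second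
one is a conditionally independent copy), of increment `a - a'`.
-/

set_option autoImplicit false

open Finset Real
open Vale.Agent.P065.Ent

noncomputable section

namespace Vale.Agent.P091.AD

/-! ## Words and products -/

section words
variable {ι L Z Γ : Type*}

/-- product weight on words -/
def pw [Fintype ι] (b : L → ℝ) (u : ι → L) : ℝ := ∏ i, b (u i)

/-- the sum of the increments of a word -/
def sm [Fintype ι] [AddCommMonoid Γ] (N : L → Γ) (u : ι → L) : Γ := ∑ i, N (u i)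

/-- the labels of a word -/
def lb (zl : L → Z) (u : ι → L) : ι → Z := fun i => zl (u i)

/-- the sum of the increments over a window `W` -/
def SW [AddCommMonoid Γ] (N : L → Γ) (W : Finset ι) (u : ι → L) : Γ := ∑ i ∈ W, N (u i)

open Classical in
/-- the values of `f` over a window `W` -/
def LW (f : L → Z) (W : Finset ι) (u : ι → L) : ι → Option Z :=
  fun i => if i ∈ W then some (f (u i)) else none

/-- the law `Q` on words is exchangeable -/
def Exch (Q : (ι → L) → ℝ) : Prop := ∀ (σ : Equiv.Perm ι) (u : ι → L), Q (fun i => u (σ i)) = Q u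

/-- total correlation of a law on words -/
def TC [Fintype ι] [DecidableEq ι] [Fintype L] (Q : (ι → L) → ℝ) : ℝ :=
  (∑ i, H Q (fun u => u i)) - H Q (fun u => u)

/-- conditional entropy of the window sum given the window labels -/
def hW [Fintype ι] [DecidableEq ι] [Fintype L] [AddCommMonoid Γ] (Q : (ι → L) → ℝ) (N : L → Γ)
    (zl : L → Z) (W : Finset ι) : ℝ := Hc Q (SW N W) (LW zl W)

end words

section div
variable {Ω X : Type*} [Fintype Ω]

/-- divergence of the law of `X` under `Q` from the weight `b` on the values -/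
def Dv (Q : Ω → ℝ) (X' : Ω → X) (b : X → ℝ) : ℝ := ∑ ω, Q ω * log (Pr Q X' (X' ω) / b (X' ω))

open Classical in
/-- weight of two copies of `ω`, conditionally independent given the label `z` -/
def cc {Z : Type*} (μ : Ω → ℝ) (z : Ω → Z) (u : Ω × Ω) : ℝ :=
  if z u.1 = z u.2 then μ u.1 * μ u.2 / Pr μ z (z u.1) else 0

end div

/-- the first `k` positions -/
def first (n k : ℕ) : Finset (Fin n) := univ.filter fun i => i.val < k

/-! ## Labelled laws -/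

/-- a labelled law: a finite probability space with a label `z` and a letter `a` -/
structure Law (Γ : Type) where
  Ω : Type
  [fin : Fintype Ω]
  μ : Ω → ℝ
  prob : IsProb μ
  Z : Type
  z : Ω → Z
  a : Ω → Γ

attribute [instance] Law.fin

theorem cc_isProb {Ω Z : Type*} [Fintype Ω] {μ : Ω → ℝ} (hμ : IsProb μ) (z : Ω → Z) :
    IsProb (cc μ z) := by
  classical
  refine ⟨fun u => ?_, ?_⟩
  · unfold cc
    split_ifs
    · exact div_nonneg (mul_nonneg (hμ.nonneg _) (hμ.nonneg _)) (Pr_nonneg hμ _ _)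
    · exact le_rfl
  · rw [Fintype.sum_prod_type, ← hμ.sum]
    refine sum_congr rfl fun ω _ => ?_
    unfold cc
    simp only
    by_cases h0 : Pr μ z (z ω) = 0
    · have h1 : μ ω = 0 := le_antisymm (h0 ▸ le_Pr hμ z ω) (hμ.nonneg ω)
      simp [h1]
    · have : ∀ ω', (if z ω = z ω' then μ ω * μ ω' / Pr μ z (z ω) else 0)
          = (μ ω / Pr μ z (z ω)) * (if z ω' = z ω then μ ω' else 0) := by
        intro ω'
        by_cases h : z ω = z ω'
        · rw [if_pos h, if_pos h.symm]; ring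
        · rw [if_neg h, if_neg (fun e => h e.symm), mul_zero]
      rw [sum_congr rfl fun ω' _ => this ω', ← mul_sum]
      have h2 : ∑ ω', (if z ω' = z ω then μ ω' else 0) = Pr μ z (z ω) := by
        unfold Pr
        exact sum_congr rfl fun ω' _ => by split_ifs <;> rfl
      rw [h2, div_mul_cancel₀ _ h0]

theorem pw_isProb {ι L : Type*} [Fintype ι] [DecidableEq ι] [Fintype L] {b : L → ℝ}
    (hb : IsProb b) : IsProb (pw (ι := ι) b) := by
  refine ⟨fun u => prod_nonneg fun i _ => hb.nonneg _, ?_⟩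
  unfold pw
  have h := Finset.prod_univ_sum (fun _ : ι => (univ : Finset L)) (fun _ l => b l)
  rw [Fintype.piFinset_univ] at h
  rw [← h]
  exact prod_eq_one fun i _ => hb.sum

theorem mul_isProb {Ω Ω' : Type*} [Fintype Ω] [Fintype Ω'] {μ : Ω → ℝ} {ν : Ω' → ℝ}
    (hμ : IsProb μ) (hν : IsProb ν) : IsProb (fun w : Ω × Ω' => μ w.1 * ν w.2) := by
  refine ⟨fun w => mul_nonneg (hμ.nonneg _) (hν.nonneg _), ?_⟩
  rw [Fintype.sum_prod_type]
  simp only
  rw [← hμ.sum]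
  exact sum_congr rfl fun ω _ => by rw [← mul_sum, hν.sum, mul_one]

namespace Law
variable {Γ : Type} (lam : Law Γ)

/-- the letter space: pairs of sample points -/
abbrev Lt : Type := lam.Ω × lam.Ω

/-- the law of a letter `(z, a, a')` -/
def beta : lam.Lt → ℝ := cc lam.μ lam.z

/-- the label of a letter -/
def zl (u : lam.Lt) : lam.Z := lam.z u.1

/-- the increment of a letter -/
def N [AddCommGroup Γ] (u : lam.Lt) : Γ := lam.a u.1 - lam.a u.2

theorem beta_isProb : IsProb lam.beta := cc_isProb lam.prob lam.z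

variable [AddCommGroup Γ]

/-- `h(n) = H(S_n | labels)`, `S_n` the sum of the increments of `n` independent letters -/
def h (n : ℕ) : ℝ := Hc (pw (ι := Fin n) lam.beta) (sm lam.N) (lb lam.zl)

/-- `ha(n) = H(a_1 + ... + a_n | labels)` -/
def ha (n : ℕ) : ℝ := Hc (pw (ι := Fin n) lam.μ) (sm lam.a) (lb lam.z)

/-- `π_{z..}(S_n)` as a function of the word -/
def cp (n : ℕ) (u : Fin n → lam.Lt) : ℝ :=
  Pr (pw lam.beta) (fun v : Fin n → lam.Lt => (sm lam.N v, lb lam.zl v)) (sm lam.N u, lb lam.zl u)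
    / Pr (pw lam.beta) (lb lam.zl) (lb lam.zl u)

/-- `Θ(p) = - log E ∑_x π_{z..}(x)²` -/
def Theta (p : ℕ) : ℝ := - log (∑ u : Fin p → lam.Lt, pw lam.beta u * lam.cp p u)

/-- `cost ≤ c`: the letter lies in `A` and its conditional density with respect to the uniform
law of `A` is at most `e^c` -/
def costLe (A : Finset Γ) (c : ℝ) : Prop :=
  ∀ ω, lam.a ω ∈ A ∧
    Pr lam.μ (fun ω => (lam.a ω, lam.z ω)) (lam.a ω, lam.z ω) * (A.card : ℝ)
      ≤ exp c * Pr lam.μ lam.z (lam.z ω)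

/-- `K` looks of length `q`: the label is enriched by the labels of `K` independent words of
length `q` and by the sums `a + S^{(i)}` -/
def looks (q K : ℕ) : Law Γ where
  Ω := lam.Ω × (Fin K → Fin q → lam.Lt)
  μ := fun w => lam.μ w.1 * pw (pw lam.beta) w.2
  prob := mul_isProb lam.prob (pw_isProb (pw_isProb lam.beta_isProb))
  Z := lam.Z × (Fin K → (Fin q → lam.Z) × Γ)
  z := fun w => (lam.z w.1, fun i => (lb lam.zl (w.2 i), lam.a w.1 + sm lam.N (w.2 i)))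
  a := fun w => lam.a w.1

end Law

/-! ## The parameters: `X = log R`, `L = X^0.6`, `U = X^0.01`, `U1 = X^0.01` -/

/-- `L = (log R)^0.6` -/
def LL (R : ℝ) : ℝ := (log R) ^ (0.6 : ℝ)

/-- `U = (log R)^0.01` -/
def UU (R : ℝ) : ℝ := (log R) ^ (0.01 : ℝ)

/-! ## Frozen statements -/

/-- AD-HMONO: `h` is nonnegative, `h 0 = 0`, `h` is nondecreasing with nonincreasing increments,
`ha` is nonnegative, nondecreasing and `ha ≤ h`. -/
def HMono : Prop := ∀ (Γ : Type) [AddCommGroup Γ] (lam : Law Γ) (n : ℕ),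
  0 ≤ lam.h n ∧ lam.h n ≤ lam.h (n + 1) ∧
  lam.h (n + 2) - lam.h (n + 1) ≤ lam.h (n + 1) - lam.h n ∧
  0 ≤ lam.ha n ∧ lam.ha n ≤ lam.ha (n + 1) ∧ lam.ha n ≤ lam.h n

/-- AD-TRUNC, (0.3): `r` is a sub-probability reference kernel of density at most `e^c`, and
the law `lam` has divergence at most `K0` from it; then one can truncate `lam`. -/
def Trunc : Prop := ∀ (Γ : Type) [AddCommGroup Γ] (A : Finset Γ) (lam : Law Γ)
  (r : lam.Z → Γ → ℝ) (c K0 : ℝ),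
  (∀ ω, lam.a ω ∈ A) →
  (∀ l x, 0 ≤ r l x) → (∀ l, ∑ x ∈ A, r l x ≤ 1) →
  (∀ l, ∀ x ∈ A, r l x * (A.card : ℝ) ≤ exp c) →
  (∀ ω, 0 < lam.μ ω → 0 < r (lam.z ω) (lam.a ω)) →
  ∑ ω, lam.μ ω * log (Pr lam.μ (fun ω => (lam.a ω, lam.z ω)) (lam.a ω, lam.z ω)
    / (Pr lam.μ lam.z (lam.z ω) * r (lam.z ω) (lam.a ω))) ≤ K0 →
  ∃ lam' : Law Γ, lam'.costLe A (c + 8 * (K0 + 1) + log 2) ∧
    ∀ p : ℕ, 56 ≤ p → lam'.h (p / 16) ≤ (1 + 56 / (p : ℝ)) * lam.h p

/-- AD-LOOKA, Lemma A (a): the cost of `K` looks -/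
def LookA : Prop := ∀ (Γ : Type) [AddCommGroup Γ] (lam : Law Γ) (q K : ℕ),
  Hc lam.μ lam.a lam.z - Hc (lam.looks q K).μ (lam.looks q K).a (lam.looks q K).z
    ≤ K * (lam.h (q + 1) - lam.h q)

/-- AD-LOOKB, Lemma A (b) -/
def LookB : Prop := ∀ (Γ : Type) [AddCommGroup Γ] (lam : Law Γ) (q K p' m : ℕ), 1 ≤ K → 1 ≤ p' →
  (lam.looks q K).h (m * p') ≤ lam.h (p' * q)
    + (m : ℝ) * (2 / (K : ℝ)) * (lam.ha p' - (lam.looks q K).ha p')

/-- AD-B, Lemma B: propagation over a factor `64 e^L`, `L = X^0.6` -/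
def LemmaB : Prop := ∃ C R0 : ℝ, 0 < C ∧ ∀ (Γ : Type) [AddCommGroup Γ] (A : Finset Γ)
  (lam : Law Γ) (R E c : ℝ) (I0 t : ℕ), R0 ≤ R → lam.costLe A c → lam.h (2 ^ I0) ≤ E →
  E ≤ 1.3 * R → R ^ (1 / 2 : ℝ) ≤ 2 ^ I0 → (2 : ℝ) ^ t ≤ 64 * exp (LL R) →
  ∃ lam' : Law Γ, lam'.costLe A (c + C * R * (log R) ^ (-0.05 : ℝ)) ∧
    lam'.h (2 ^ (I0 + t)) ≤ E + C * R * (log R) ^ (-0.05 : ℝ)

/-- AD-DV, (0.2): the Gibbs law -/
def Gibbs : Prop := ∀ (Γ : Type) [AddCommGroup Γ] (lam : Law Γ) (p : ℕ),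
  ∃ Q : (Fin p → lam.Lt) → ℝ, IsProb Q ∧ Exch Q ∧ (∀ u, 0 < Q u → 0 < pw lam.beta u) ∧
    Hc Q (sm lam.N) (lb lam.zl) + Dv Q (fun u => u) (pw lam.beta) ≤ lam.Theta p

/-- AD-WIN, (4.1) + (4.2): extraction of a window with small total correlation -/
def Window : Prop := ∃ C : ℝ, 0 < C ∧ ∀ (Γ L Z : Type) [AddCommGroup Γ] [Fintype L]
  (N : L → Γ) (zl : L → Z) (β : L → ℝ) (p w : ℕ) (Q : (Fin p → L) → ℝ) (Θ D0 U : ℝ),
  IsProb β → IsProb Q → Exch Q → (∀ u, 0 < Q u → 0 < pw β u) →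
  1 ≤ w → 4 * w ≤ p → 1 ≤ U → Dv Q (fun u => u) (pw β) ≤ D0 →
  Hc Q (sm N) (lb zl) + Dv Q (fun u => u) (pw β) ≤ Θ →
  ∃ Q' : (Fin w → L) → ℝ, IsProb Q' ∧ Exch Q' ∧ (∀ u, 0 < Q' u → 0 < pw β u) ∧
    hW Q' N zl univ ≤ (1 + 1 / U) * Θ ∧
    TC Q' ≤ C * U * D0 * (w : ℝ) ^ 2 / (p : ℝ) ^ 2 ∧
    ∀ i, Dv Q' (fun u => u i) β ≤ C * U * D0 / p

/-- AD-TCH: window entropies of an exchangeable law of small total correlation -/
def WinMono : Prop := ∀ (Γ L Z : Type) [AddCommGroup Γ] [Fintype L]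
  (N : L → Γ) (zl : L → Z) (n j k : ℕ) (Q : (Fin n → L) → ℝ),
  IsProb Q → Exch Q → j ≤ k → k ≤ n → 0 ≤ TC Q ∧ 0 ≤ hW Q N zl (first n j) ∧
    hW Q N zl (first n j) ≤ hW Q N zl (first n k) + TC Q

/-- the data of (4.3)-(4.5): a letter `ξ` and a group element `T` on a finite probability space -/
structure IsLoc {Γ L Z : Type} [AddCommGroup Γ] [Fintype L] (N : L → Γ) (zl : L → Z) (β : L → ℝ)
    {Ω' : Type} [Fintype Ω'] (μ' : Ω' → ℝ) (ξ : Ω' → L) (T : Ω' → Γ) (Hν κ ι δ D1 : ℝ) :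
    Prop where
  prob : IsProb μ'
  ac : ∀ ω, 0 < μ' ω → 0 < β (ξ ω)
  hT : H μ' T ≤ Hν
  dbl : H (fun v : Ω' × Ω' => μ' v.1 * μ' v.2) (fun v => T v.1 + T v.2) - H μ' T ≤ κ
  abs : I μ' ξ (fun ω => T ω + N (ξ ω)) (fun ω => zl (ξ ω)) ≤ ι
  esc : I μ' ξ T (fun _ => ()) ≤ δ
  div : Dv μ' ξ β ≤ D1

/-- AD-LOC, (4.3)-(4.5): from a window to a local pair `(ξ, T)` -/
def LocExtract : Prop := ∃ C : ℝ, 0 < C ∧ ∀ (Γ L Z : Type) [AddCommGroup Γ] [Fintype L]
  (N : L → Γ) (zl : L → Z) (β : L → ℝ) (n k : ℕ) (Q : (Fin n → L) → ℝ) (τ g D1 U : ℝ),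
  IsProb β → IsProb Q → Exch Q → (∀ u, 0 < Q u → 0 < pw β u) →
  1 ≤ k → 8 * k ≤ n → 1 ≤ U → TC Q ≤ τ → 0 ≤ g →
  hW Q N zl (first n (2 * k)) - hW Q N zl (first n k) ≤ g →
  (∀ i, Dv Q (fun u => u i) β ≤ D1) →
  ∃ (Ω' : Type) (_ : Fintype Ω') (μ' : Ω' → ℝ) (ξ : Ω' → L) (T : Ω' → Γ),
    IsLoc N zl β μ' ξ T ((1 + 1 / U) * (hW Q N zl (first n (2 * k)) + C * τ))
      (C * U * (g + τ)) (C * U * (g + τ) / k) (C * U * τ / n) (C * U * (D1 + τ / n))

/-- AD-LOCSTEP, (4.6) + (4.7): from a local pair to a labelled law -/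
def LocStep : Prop := ∃ C : ℝ, 1 ≤ C ∧ ∀ (Γ : Type) [AddCommGroup Γ] (A : Finset Γ)
  (lam : Law Γ) (Ω' : Type) [Fintype Ω'] (μ' : Ω' → ℝ) (ξ : Ω' → lam.Lt) (T : Ω' → Γ)
  (Hν κ ι δ D1 c R : ℝ) (M K : ℕ),
  IsLoc lam.N lam.zl lam.beta μ' ξ T Hν κ ι δ D1 → lam.costLe A c → log A.card ≤ R →
  1 ≤ M → 1 ≤ K → C * δ ≤ 1 / 2 → (C * δ) ^ M * R ≤ 1 →
  ∃ lam' : Law Γ, lam'.costLe A (c + C * (K * (ι + 1) + D1 + 1)) ∧
    ∀ k : ℕ, 56 ≤ k →
      lam'.h (k / 16) ≤ (1 + 56 / (k : ℝ)) * (Hν + C * M * κ + 2 * k * R / K)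

/-- AD-C, Lemma C -/
def LemmaC : Prop := ∃ C R0 : ℝ, 0 < C ∧ ∀ (Γ : Type) [AddCommGroup Γ] (A : Finset Γ)
  (lam : Law Γ) (R c : ℝ) (m : ℕ), R0 ≤ R → log A.card ≤ 1.1 * R → lam.costLe A c →
  R / UU R ≤ 2 ^ m → (2 : ℝ) ^ m ≤ 4 * R / UU R → lam.Theta (2 ^ m) ≤ 1.1 * R →
  ∃ (lam' : Law Γ) (k : ℕ), 2 ^ m * exp (- LL R) ≤ 2 ^ k ∧ k ≤ m ∧
    lam'.costLe A (c + C * R * (log R) ^ (-0.5 : ℝ)) ∧
    lam'.h (2 ^ k / 16) ≤ (1 + C / UU R) * lam.Theta (2 ^ m) + C * R / UU R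

/-- AD-CORE, section 5: the output `(*)` -/
def Core : Prop := ∃ c C R0 : ℝ, 0 < c ∧ ∀ (Γ : Type) [AddCommGroup Γ] (A : Finset Γ) (R : ℝ),
  R0 ≤ R → A.Nonempty → log A.card ≤ 1.1 * R →
  (∀ (lam : Law Γ) (p : ℕ), (∀ ω, lam.a ω ∈ A) → (p : ℝ) ≤ 4 * R / UU R →
    lam.Theta p ≤ 1.1 * R) →
  ∃ (lam : Law Γ) (m : ℕ), lam.costLe A (C * R * (log R) ^ (-c)) ∧
    (2 : ℝ) ^ m ≤ 4 * R / UU R ∧
    lam.h (2 ^ m + 1) - lam.h (2 ^ m) ≤ C * (log R) ^ (-c) ∧
    lam.h (2 ^ m) ≤ lam.Theta (2 ^ m) + C * R * (log R) ^ (-c)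

end Vale.Agent.P091.AD
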